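import Crest.Agent.Lib.ProdProb

/-! Multi-level selector encoding: the combinatorial core. -/

set_option autoImplicit false
set_option linter.unusedSectionVars false

namespace Crest.Agent.R52

open Finset Crest.Agent.PP

variable {α : Type} [Fintype α] [DecidableEq α]

/-- level densities -/
noncomputable def rho (k : ℕ) : ℝ := (1 / 2) ^ (k + 1)

lemma rho_pos (k : ℕ) : 0 < rho k := by unfold rho; positivity

lemma sum_rho_le (J : ℕ) : ∑ k ∈ range J, rho k ≤ 1 := by
  have : ∑ k ∈ range J, rho k = 1 - (1 / 2) ^ J := by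
    induction J with
    | zero => simp
    | succ n ih => rw [sum_range_succ, ih]; unfold rho; ring
  rw [this]
  have : (0:ℝ) ≤ (1 / 2) ^ J := by positivity
  linarith

/-- a configuration: a member of the family and truncation levels -/
structure Cfg (α : Type) where
  U : Finset α
  η : ℕ → ℝ

variable (F : Finset (Finset α)) (lam : Finset α → α → ℝ) (J : ℕ)

open Classical in
/-- heavy elements at level `k` -/
noncomputable def Cfg.H (c : Cfg α) (k : ℕ) : Finset α := univ.filter fun x => c.η k < lam c.U x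

open Classical in
/-- elements lowered to a level `≤ k` -/
noncomputable def Cfg.T (c : Cfg α) (l : α → ℕ) (k : ℕ) : Finset α :=
  univ.filter fun x => ∃ j ≤ k, x ∈ c.H lam j ∧ j < l x

def Cfg.Ok (c : Cfg α) : Prop := c.U ∈ F ∧ Antitone c.η ∧ ∀ k, 0 < c.η k

def Cfg.Feas (c : Cfg α) (U₀ : Finset α) (l : α → ℕ) : Prop :=
  c.Ok F ∧ (∀ k < J, ∀ x ∈ c.H lam k, x ∈ U₀ ∨ l x ≤ k) ∧
    ∀ k < J, 0 ≤ ∑ x, min (lam c.U x) (c.η k) * (rho k - ind (k < l x ∨ x ∈ c.T lam l k)) + rho k

def Cfg.Dec (c : Cfg α) (l' : α → ℕ) (s : ℕ → ℕ) : Prop :=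
  c.Ok F ∧ (∀ k < J, ∀ x ∈ c.H lam k, l' x ≤ k) ∧
    ∀ k < J, c.η k * s k ≤ ∑ x, min (lam c.U x) (c.η k) * (rho k - ind (k < l' x)) + rho k

/-- first potential -/
noncomputable def Cfg.pot (c : Cfg α) : ℕ := ∑ k ∈ range J, (c.H lam k).card

open Classical in
/-- the lowered labelling -/
noncomputable def Cfg.low (c : Cfg α) (l : α → ℕ) (x : α) : ℕ :=
  if h : ∃ j, j < J ∧ x ∈ c.H lam j ∧ j < l x then Nat.find h else l x

variable {F lam J}

lemma mem_H {c : Cfg α} {k : ℕ} {x : α} : x ∈ c.H lam k ↔ c.η k < lam c.U x := by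
  simp [Cfg.H]

lemma mem_T {c : Cfg α} {l : α → ℕ} {k : ℕ} {x : α} :
    x ∈ c.T lam l k ↔ ∃ j ≤ k, x ∈ c.H lam j ∧ j < l x := by
  simp [Cfg.T]

lemma H_mono {c : Cfg α} (hc : c.Ok F) {j k : ℕ} (h : j ≤ k) : c.H lam j ⊆ c.H lam k :=
  fun _ hx => mem_H.2 ((hc.2.1 h).trans_lt (mem_H.1 hx))

lemma T_mono {c : Cfg α} {l : α → ℕ} {j k : ℕ} (h : j ≤ k) : c.T lam l j ⊆ c.T lam l k := by
  intro x hx
  obtain ⟨i, hi, h2⟩ := mem_T.1 hx
  exact mem_T.2 ⟨i, hi.trans h, h2⟩

lemma T_sub_H {c : Cfg α} (hc : c.Ok F) {l : α → ℕ} {k : ℕ} : c.T lam l k ⊆ c.H lam k := by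
  intro x hx
  obtain ⟨i, hi, h2, _⟩ := mem_T.1 hx
  exact H_mono hc hi h2

lemma low_le_iff {c : Cfg α} {l : α → ℕ} {k : ℕ} (hk : k < J) (x : α) :
    c.low lam J l x ≤ k ↔ l x ≤ k ∨ x ∈ c.T lam l k := by
  classical
  unfold Cfg.low
  split_ifs with h
  · rw [Nat.find_le_iff, mem_T]
    constructor
    · rintro ⟨j, hj, _, h2, h3⟩; exact Or.inr ⟨j, hj, h2, h3⟩
    · rintro (h1 | ⟨j, hj, h2, h3⟩)
      · obtain ⟨j, hj, h2, h3⟩ := h
        exact ⟨j, by omega, hj, h2, h3⟩
      · exact ⟨j, hj, by omega, h2, h3⟩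
  · constructor
    · exact Or.inl
    · rintro (h1 | h1)
      · exact h1
      · obtain ⟨j, hj, h2, h3⟩ := mem_T.1 h1
        exact absurd ⟨j, by omega, h2, h3⟩ h

lemma low_spec {c : Cfg α} {l : α → ℕ} {k : ℕ} (hk : k < J) {x : α} (hx : x ∈ c.T lam l k) :
    c.low lam J l x ≤ k ∧ x ∈ c.H lam (c.low lam J l x) ∧ c.low lam J l x < l x := by
  classical
  refine ⟨(low_le_iff hk x).2 (Or.inr hx), ?_⟩
  obtain ⟨j, hj, h2, h3⟩ := mem_T.1 hx
  have h : ∃ j, j < J ∧ x ∈ c.H lam j ∧ j < l x := ⟨j, by omega, h2, h3⟩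
  unfold Cfg.low
  rw [dif_pos h]
  exact (Nat.find_spec h).2

lemma low_eq {c : Cfg α} {l : α → ℕ} {x : α} (hx : ∀ k < J, x ∉ c.T lam l k) :
    c.low lam J l x = l x := by
  unfold Cfg.low
  rw [dif_neg]
  rintro ⟨j, hj, h2, h3⟩
  exact hx j hj (mem_T.2 ⟨j, le_rfl, h2, h3⟩)

lemma Feas.dec {c : Cfg α} {U₀ : Finset α} {l : α → ℕ} (h : c.Feas F lam J U₀ l) :
    c.Dec F lam J (c.low lam J l) (fun k => (c.T lam l k).card) := by
  classical
  obtain ⟨hok, h1, h2⟩ := h
  refine ⟨hok, fun k hk x hx => ?_, fun k hk => ?_⟩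
  · rw [low_le_iff hk]
    by_cases hl : l x ≤ k
    · exact Or.inl hl
    · exact Or.inr (mem_T.2 ⟨k, le_rfl, hx, by omega⟩)
  · have h3 := h2 k hk
    have e1 : ∀ x, min (lam c.U x) (c.η k) * (rho k - ind (k < l x ∨ x ∈ c.T lam l k)) =
        min (lam c.U x) (c.η k) * (rho k - ind (k < c.low lam J l x)) -
          c.η k * ind (x ∈ c.T lam l k) := by
      intro x
      by_cases hx : x ∈ c.T lam l k
      · have := (low_spec hk hx).1
        rw [ind_pos (Or.inr hx), ind_pos hx, ind_neg (by omega),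
          min_eq_right (mem_H.1 (T_sub_H hok hx)).le]
        ring
      · rw [ind_neg hx, ind_congr (Q := k < c.low lam J l x)]
        · ring
        · have := low_le_iff (c := c) (lam := lam) (l := l) hk x
          constructor
          · rintro (h | h)
            · by_contra hc
              rcases this.1 (by omega) with h' | h'
              · omega
              · exact hx h'
            · exact absurd h hx
          · intro h; left; by_contra hc
            have := this.2 (Or.inl (by omega)); omega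
    simp only [e1, sum_sub_distrib, ← mul_sum] at h3
    have e2 : ∑ x, ind (x ∈ c.T lam l k) = ((c.T lam l k).card : ℝ) := by
      rw [← card_filter_eq_sum_ind]; simp
    rw [e2] at h3
    linarith

lemma Dec.feas (hlam : ∀ U ∈ F, ∀ x, 0 ≤ lam U x) {c c' : Cfg α} {U₀ : Finset α} {l : α → ℕ}
    (h : c.Feas F lam J U₀ l) (h' : c'.Dec F lam J (c.low lam J l) (fun k => (c.T lam l k).card)) :
    c'.Feas F lam J U₀ l ∧ ∀ k < J, c'.T lam l k ⊆ c.T lam l k := by
  classical
  obtain ⟨hok, h1, h2⟩ := h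
  obtain ⟨hok', h1', h2'⟩ := h'
  have hT : ∀ k < J, c'.T lam l k ⊆ c.T lam l k := by
    intro k hk x hx
    obtain ⟨j, hj, h3, h4⟩ := mem_T.1 hx
    rcases (low_le_iff (by omega) x).1 (h1' j (by omega) x h3) with h5 | h5
    · omega
    · exact T_mono hj h5
  refine ⟨⟨hok', fun k hk x hx => ?_, fun k hk => ?_⟩, hT⟩
  · rcases (low_le_iff hk x).1 (h1' k hk x hx) with h5 | h5
    · exact Or.inr h5
    · obtain ⟨j, hj, h3, h4⟩ := mem_T.1 h5
      rcases h1 j (by omega) x h3 with h6 | h6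
      · exact Or.inl h6
      · omega
  · have h3 := h2' k hk
    have e1 : ∀ x, min (lam c'.U x) (c'.η k) * (rho k - ind (k < c.low lam J l x)) -
          c'.η k * ind (x ∈ c.T lam l k) ≤
        min (lam c'.U x) (c'.η k) * (rho k - ind (k < l x ∨ x ∈ c'.T lam l k)) := by
      intro x
      have hm0 : 0 ≤ min (lam c'.U x) (c'.η k) := le_min (hlam _ hok'.1 x) (hok'.2.2 k).le
      have hm1 : min (lam c'.U x) (c'.η k) ≤ c'.η k := min_le_right _ _
      by_cases hx : x ∈ c.T lam l k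
      · rw [ind_pos hx]
        have := ind_le_one (k < l x ∨ x ∈ c'.T lam l k)
        have := ind_nonneg (k < c.low lam J l x)
        nlinarith
      · rw [ind_neg hx]
        have : ind (k < l x ∨ x ∈ c'.T lam l k) ≤ ind (k < c.low lam J l x) := by
          refine ind_mono ?_
          rintro (h | h)
          · by_contra hc
            rcases (low_le_iff (c := c) (lam := lam) (l := l) hk x).1 (by omega) with h' | h'
            · omega
            · exact hx h'
          · exact absurd (hT k hk h) hx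
        nlinarith
    have h4 := sum_le_sum fun x (_ : x ∈ univ) => e1 x
    rw [sum_sub_distrib, ← mul_sum] at h4
    have e2 : ∑ x, ind (x ∈ c.T lam l k) = ((c.T lam l k).card : ℝ) := by
      rw [← card_filter_eq_sum_ind]; simp
    rw [e2] at h4
    linarith

lemma jump (hlam : ∀ U ∈ F, ∀ x, 0 ≤ lam U x) {c : Cfg α} {U₀ : Finset α} {l : α → ℕ}
    (h : c.Feas F lam J U₀ l)
    (hmin : ∀ c' : Cfg α, c'.Feas F lam J U₀ l → c.pot lam J ≤ c'.pot lam J)
    {k : ℕ} (hk : k < J) {x₀ : α} (hx₀ : x₀ ∈ c.H lam k) (hx₁ : ∀ j < k, x₀ ∉ c.H lam j) :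
    rho k * (c.H lam k).card < (c.T lam l k).card := by
  classical
  obtain ⟨hok, h1, h2⟩ := h
  obtain ⟨y, hy, hymin⟩ := exists_min_image (c.H lam k) (lam c.U) ⟨x₀, hx₀⟩
  set e := lam c.U y with he
  have hek : c.η k < e := mem_H.1 hy
  let c' : Cfg α := ⟨c.U, Function.update c.η k e⟩
  have hη : ∀ j, j ≠ k → c'.η j = c.η j := fun j hj => Function.update_of_ne hj _ _
  have hηk : c'.η k = e := Function.update_self _ _ _
  have hge : ∀ j, c.η j ≤ c'.η j := by
    intro j; by_cases hj : j = k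
    · subst hj; rw [hηk]; exact hek.le
    · rw [hη j hj]
  have hHsub : ∀ j, c'.H lam j ⊆ c.H lam j := fun j x hx =>
    mem_H.2 ((hge j).trans_lt (mem_H.1 hx))
  have hTsub : ∀ j, c'.T lam l j ⊆ c.T lam l j := by
    intro j x hx
    obtain ⟨i, hi, h3, h4⟩ := mem_T.1 hx
    exact mem_T.2 ⟨i, hi, hHsub i h3, h4⟩
  have hok' : c'.Ok F := by
    refine ⟨hok.1, ?_, fun j => (hok.2.2 j).trans_le (hge j)⟩
    intro i j hij
    by_cases hj : j = k
    · by_cases hi : i = k
      · rw [hi, hj]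
      · rw [hj, hηk, hη i hi]
        have := hx₁ i (by omega)
        rw [mem_H, not_lt] at this
        exact (hymin x₀ hx₀).trans this
    · rw [hη j hj]; exact (hok.2.1 hij).trans (hge i)
  have hmono : ∀ j (η : ℝ), 0 < η →
      ∑ x, min (lam c.U x) η * (rho j - ind (j < l x ∨ x ∈ c.T lam l j)) ≤
      ∑ x, min (lam c.U x) η * (rho j - ind (j < l x ∨ x ∈ c'.T lam l j)) := by
    intro j η hη0
    refine sum_le_sum fun x _ => mul_le_mul_of_nonneg_left ?_ (le_min (hlam _ hok.1 x) hη0.le)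
    have := ind_mono (P := j < l x ∨ x ∈ c'.T lam l j) (Q := j < l x ∨ x ∈ c.T lam l j)
      (fun h => h.imp id (fun h' => hTsub j h'))
    linarith
  have hpot : c'.pot lam J < c.pot lam J := by
    refine sum_lt_sum (fun j _ => card_le_card (hHsub j)) ⟨k, mem_range.2 hk, card_lt_card ?_⟩
    refine ⟨hHsub k, fun hs => ?_⟩
    have := mem_H.1 (hs hy)
    rw [hηk] at this
    exact lt_irrefl _ this
  have hfail : ∑ x, min (lam c.U x) e * (rho k - ind (k < l x ∨ x ∈ c.T lam l k)) + rho k < 0 := by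
    by_contra hc
    refine absurd (hmin c' ⟨hok', fun j hj x hx => h1 j hj x (hHsub j hx), fun j hj => ?_⟩)
      (not_le.2 hpot)
    by_cases hjk : j = k
    · subst hjk
      have := hmono j e ((hok.2.2 j).trans hek)
      rw [hηk]; change 0 ≤ ∑ x, min (lam c.U x) e * _ + _
      linarith
    · have := hmono j (c.η j) (hok.2.2 j)
      have h3 := h2 j hj
      rw [hη j hjk]; change 0 ≤ ∑ x, min (lam c.U x) (c.η j) * _ + _
      linarith
  have h3 := h2 k hk
  have e1 : ∀ x, min (lam c.U x) (c.η k) * (rho k - ind (k < l x ∨ x ∈ c.T lam l k)) +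
      (e - c.η k) * (rho k * ind (x ∈ c.H lam k) - ind (x ∈ c.T lam l k)) =
      min (lam c.U x) e * (rho k - ind (k < l x ∨ x ∈ c.T lam l k)) := by
    intro x
    by_cases hx : x ∈ c.H lam k
    · rw [ind_pos hx, min_eq_right (mem_H.1 hx).le, min_eq_right (hymin x hx),
        ind_congr (P := k < l x ∨ x ∈ c.T lam l k) (Q := x ∈ c.T lam l k)]
      · ring
      · exact ⟨fun h => h.elim (fun h => mem_T.2 ⟨k, le_rfl, hx, h⟩) id, Or.inr⟩
    · have hx' : x ∉ c.T lam l k := fun h => hx (T_sub_H hok h)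
      rw [ind_neg hx, ind_neg hx']
      rw [mem_H, not_lt] at hx
      rw [min_eq_left hx, min_eq_left (hx.trans hek.le)]
      ring
  simp only [← e1, sum_add_distrib, ← mul_sum, sum_sub_distrib] at hfail
  have e2 : ∑ x, ind (x ∈ c.T lam l k) = ((c.T lam l k).card : ℝ) := by
    rw [← card_filter_eq_sum_ind]; simp
  have e3 : ∑ x, ind (x ∈ c.H lam k) = ((c.H lam k).card : ℝ) := by
    rw [← card_filter_eq_sum_ind]; simp
  rw [e2, e3] at hfail
  by_contra hc
  have : 0 ≤ (e - c.η k) * (rho k * (c.H lam k).card - (c.T lam l k).card) :=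
    mul_nonneg (by linarith) (by linarith)
  linarith

lemma exists_feas (hlam : ∀ U ∈ F, ∀ x, 0 ≤ lam U x) (hsupp : ∀ U ∈ F, ∀ x ∉ U, lam U x = 0)
    {U₀ : Finset α} (hU : U₀ ∈ F) (l : α → ℕ) : ∃ c : Cfg α, c.Feas F lam J U₀ l := by
  set e : ℝ := rho J / (Fintype.card α + 1) with he
  have he0 : 0 < e := div_pos (rho_pos J) (by positivity)
  refine ⟨⟨U₀, fun _ => e⟩, ⟨hU, antitone_const, fun _ => he0⟩, fun k _ x hx => Or.inl ?_,
    fun k hk => ?_⟩
  · by_contra hc
    have := mem_H.1 hx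
    simp only [hsupp U₀ hU x hc] at this
    linarith
  · have h1 : ∀ x (P : Prop), -e ≤ min (lam U₀ x) e * (rho k - ind P) := by
      intro x P
      have hm0 : 0 ≤ min (lam U₀ x) e := le_min (hlam _ hU x) he0.le
      have hm1 : min (lam U₀ x) e ≤ e := min_le_right _ _
      have := ind_le_one P
      have := rho_pos k
      nlinarith
    have h2 := sum_le_sum fun x (_ : x ∈ (univ : Finset α)) =>
      h1 x (k < l x ∨ x ∈ Cfg.T lam ⟨U₀, fun _ => e⟩ l k)
    simp only [sum_const, card_univ, nsmul_eq_mul] at h2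
    have h3 : rho J ≤ rho k := by
      unfold rho; exact pow_le_pow_of_le_one (by norm_num) (by norm_num) (by omega)
    have h4 : e * (Fintype.card α + 1) = rho J := by rw [he]; field_simp
    nlinarith

lemma good_of_empty (hsum : ∀ U ∈ F, ∑ x, lam U x = 1) (hlam : ∀ U ∈ F, ∀ x, 0 ≤ lam U x)
    {c : Cfg α} {U₀ : Finset α} {l : α → ℕ} (hl : ∀ x, l x ≤ J)
    (h : c.Feas F lam J U₀ l)
    (hmin : ∀ c' : Cfg α, c'.Feas F lam J U₀ l → c.pot lam J ≤ c'.pot lam J)
    (hT : ∀ k < J, c.T lam l k = ∅) : ∑ x, lam c.U x * l x ≤ 2 := by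
  classical
  have hH : ∀ k, k < J → c.H lam k = ∅ := by
    intro k
    induction k using Nat.strong_induction_on with
    | _ k ih =>
      intro hk
      by_contra hc
      obtain ⟨x, hx⟩ := nonempty_iff_ne_empty.2 hc
      have := jump hlam h hmin hk hx (fun j hj => by rw [ih j hj (by omega)]; simp)
      rw [hT k hk] at this
      have h2 : 0 ≤ rho k * (c.H lam k).card := mul_nonneg (rho_pos k).le (by positivity)
      simp at this; linarith
  have h1 : ∀ k ∈ range J, ∑ x, lam c.U x * ind (k < l x) ≤ 2 * rho k := by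
    intro k hk
    have hk := mem_range.1 hk
    have h3 := h.2.2 k hk
    have e1 : ∀ x, min (lam c.U x) (c.η k) * (rho k - ind (k < l x ∨ x ∈ c.T lam l k)) =
        lam c.U x * rho k - lam c.U x * ind (k < l x) := by
      intro x
      have : x ∉ c.H lam k := by rw [hH k hk]; simp
      rw [mem_H, not_lt] at this
      rw [min_eq_left this, hT k hk]; simp [mul_sub]
    simp only [e1, sum_sub_distrib, ← sum_mul, hsum _ h.1.1] at h3
    linarith
  have h2 := sum_le_sum h1
  rw [sum_comm, ← mul_sum] at h2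
  have h3 := sum_rho_le J
  refine le_trans (le_of_eq (sum_congr rfl fun x _ => ?_)) (h2.trans (by linarith))
  rw [← mul_sum, ← card_filter_eq_sum_ind]
  congr 2
  have : filter (fun k => k < l x) (range J) = range (l x) := by
    ext k; simp only [mem_filter, mem_range]; have := hl x; omega
  rw [this, card_range]

variable (F lam J)

open Classical in
/-- canonical configuration of a decoder class -/
noncomputable def canon (l' : α → ℕ) (s : ℕ → ℕ) : Cfg α :=
  if h : ∃ c : Cfg α, c.Dec F lam J l' s ∧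
      ∀ c' : Cfg α, c'.Dec F lam J l' s → c.pot lam J ≤ c'.pot lam J then h.choose
  else ⟨∅, fun _ => 0⟩

open Classical in
/-- the decoder's candidate set -/
noncomputable def cand (l' : α → ℕ) (s : ℕ → ℕ) (τ : ℕ) : Finset α :=
  univ.filter fun x => l' x < J ∧ x ∈ (canon F lam J l' s).H lam (l' x) ∧
    rho (l' x) * ((canon F lam J l' s).H lam (l' x)).card ≤ τ

variable {F lam J}

lemma exists_min_nat {β : Type*} (P : β → Prop) (f : β → ℕ) (h : ∃ b, P b) :
    ∃ b, P b ∧ ∀ b', P b' → f b ≤ f b' := by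
  classical
  have h1 : ∃ n, ∃ b, P b ∧ f b = n := let ⟨b, hb⟩ := h; ⟨_, b, hb, rfl⟩
  obtain ⟨b, hb, e⟩ := Nat.find_spec h1
  exact ⟨b, hb, fun b' hb' => e ▸ Nat.find_min' h1 ⟨b', hb', rfl⟩⟩

lemma canon_spec {l' : α → ℕ} {s : ℕ → ℕ} (h : ∃ c : Cfg α, c.Dec F lam J l' s) :
    (canon F lam J l' s).Dec F lam J l' s ∧
      ∀ c' : Cfg α, c'.Dec F lam J l' s → (canon F lam J l' s).pot lam J ≤ c'.pot lam J := by
  have h1 := exists_min_nat _ (fun c : Cfg α => c.pot lam J) h
  unfold canon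
  rw [dif_pos h1]
  exact h1.choose_spec

lemma sum_cand_le (l' : α → ℕ) (s : ℕ → ℕ) (τ : ℕ) :
    ∑ x ∈ cand F lam J l' s τ, rho (l' x) ^ 2 ≤ τ := by
  classical
  set c := canon F lam J l' s
  have h1 : ∑ x ∈ cand F lam J l' s τ, rho (l' x) ^ 2 =
      ∑ k ∈ range J, ∑ x ∈ (cand F lam J l' s τ).filter (fun x => l' x = k), rho (l' x) ^ 2 := by
    rw [sum_fiberwise_of_maps_to]
    intro x hx
    simp only [cand, mem_filter] at hx
    exact mem_range.2 hx.2.1
  rw [h1]
  refine le_trans (sum_le_sum (g := fun k => rho k * τ) fun k _ => ?_) ?_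
  · by_cases hk : rho k * (c.H lam k).card ≤ τ
    · have h2 : ∑ x ∈ (cand F lam J l' s τ).filter (fun x => l' x = k), rho (l' x) ^ 2 =
          ((cand F lam J l' s τ).filter (fun x => l' x = k)).card * rho k ^ 2 := by
        rw [sum_congr rfl (g := fun _ => rho k ^ 2) (fun x hx => by rw [(mem_filter.1 hx).2])]
        simp
      have h3 : (((cand F lam J l' s τ).filter (fun x => l' x = k)).card : ℝ) ≤
          (c.H lam k).card := by
        norm_cast
        refine card_le_card fun x hx => ?_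
        simp only [cand, mem_filter] at hx
        rw [← hx.2]; exact hx.1.2.2.1
      rw [h2]
      have := rho_pos k
      calc _ ≤ (c.H lam k).card * rho k ^ 2 := by gcongr
        _ = rho k * (rho k * (c.H lam k).card) := by ring
        _ ≤ _ := by gcongr
    · rw [sum_eq_zero]
      · exact mul_nonneg (rho_pos k).le (by positivity)
      · intro x hx
        simp only [cand, mem_filter] at hx
        exact absurd (hx.2 ▸ hx.1.2.2.2) hk
  · rw [← sum_mul]
    have := sum_rho_le J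
    have h0 : (0:ℝ) ≤ τ := by positivity
    nlinarith

/-- The encoding lemma. -/
theorem encode (hsum : ∀ U ∈ F, ∑ x, lam U x = 1) (hlam : ∀ U ∈ F, ∀ x, 0 ≤ lam U x)
    (hsupp : ∀ U ∈ F, ∀ x ∉ U, lam U x = 0) {l : α → ℕ} (hl : ∀ x, l x ≤ J)
    (hbad : ∀ U ∈ F, 2 < ∑ x, lam U x * l x) {U₀ : Finset α} (hU : U₀ ∈ F) :
    ∃ T : Finset α, T ⊆ U₀ ∧ T.Nonempty ∧ ∃ l' : α → ℕ, (∀ x ∉ T, l' x = l x) ∧
      T ⊆ cand F lam J l' (fun k => (T.filter fun x => l' x ≤ k).card) T.card := by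
  classical
  obtain ⟨c₁, hc₁, hmin₁⟩ := exists_min_nat _ (fun c : Cfg α => c.pot lam J)
    (exists_feas (J := J) hlam hsupp hU l)
  obtain ⟨c, ⟨hc, hce⟩, hmin₂⟩ := exists_min_nat
    (fun c : Cfg α => c.Feas F lam J U₀ l ∧ c.pot lam J = c₁.pot lam J)
    (fun c => ∑ k ∈ range J, (c.T lam l k).card) ⟨c₁, hc₁, rfl⟩
  have hmin : ∀ c' : Cfg α, c'.Feas F lam J U₀ l → c.pot lam J ≤ c'.pot lam J :=
    fun c' h' => hce ▸ hmin₁ c' h'
  have hne : ∃ k < J, c.T lam l k ≠ ∅ := by
    by_contra hcon; push Not at hcon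
    exact absurd (good_of_empty hsum hlam hl hc hmin hcon) (not_le.2 (hbad _ hc.1.1))
  obtain ⟨k₀, hk₀, hne⟩ := hne
  have hJ : J - 1 < J := by omega
  set T := c.T lam l (J - 1) with hTdef
  set l' := c.low lam J l with hl'
  have hs : ∀ k < J, (T.filter fun x => l' x ≤ k) = c.T lam l k := by
    intro k hk; ext x
    rw [mem_filter]
    constructor
    · rintro ⟨h1, h2⟩
      obtain ⟨_, h3, h4⟩ := low_spec hJ h1
      exact mem_T.2 ⟨_, h2, h3, h4⟩
    · intro h; exact ⟨T_mono (by omega) h, (low_spec hk h).1⟩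
  have hdec_iff : ∀ c' : Cfg α, c'.Dec F lam J l' (fun k => (T.filter fun x => l' x ≤ k).card) ↔
      c'.Dec F lam J l' (fun k => (c.T lam l k).card) := by
    intro c'
    unfold Cfg.Dec
    refine and_congr_right fun _ => and_congr_right fun _ => forall₂_congr fun k hk => ?_
    simp only [hs k hk]
  obtain ⟨hd, hdmin⟩ := canon_spec (F := F) (lam := lam) (J := J) (l' := l')
    (s := fun k => (T.filter fun x => l' x ≤ k).card) ⟨c, (hdec_iff c).2 (Feas.dec hc)⟩
  set d := canon F lam J l' (fun k => (T.filter fun x => l' x ≤ k).card) with hddef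
  obtain ⟨hdf, hdT⟩ := Dec.feas hlam hc ((hdec_iff d).1 hd)
  have hdpot : d.pot lam J = c₁.pot lam J :=
    le_antisymm (hce ▸ hdmin c ((hdec_iff c).2 (Feas.dec hc))) (hmin₁ d hdf)
  have hTeq : ∀ k < J, d.T lam l k = c.T lam l k := by
    intro k hk
    refine eq_of_subset_of_card_le (hdT k hk) ?_
    by_contra hcon
    refine absurd (hmin₂ d ⟨hdf, hdpot⟩) (not_le.2 ?_)
    exact sum_lt_sum (fun j hj => card_le_card (hdT j (mem_range.1 hj)))
      ⟨k, mem_range.2 hk, not_le.1 hcon⟩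
  refine ⟨T, fun x hx => ?_, ?_, l', fun x hx => low_eq fun k hk h => hx (T_mono (by omega) h),
    fun x hx => ?_⟩
  · obtain ⟨j, hj, h3, h4⟩ := mem_T.1 hx
    rcases hc.2.1 j (by omega) x h3 with h | h
    · exact h
    · omega
  · obtain ⟨x, hx⟩ := nonempty_iff_ne_empty.2 hne
    exact ⟨x, T_mono (by omega) hx⟩
  · obtain ⟨h1, h2, h3⟩ := low_spec hJ hx
    change l' x ≤ _ at h1
    change l' x < _ at h3
    have hk : l' x < J := by omega
    have hxT : x ∈ d.T lam l (l' x) := by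
      rw [hTeq _ hk]; exact mem_T.2 ⟨_, le_rfl, h2, h3⟩
    have hxH : x ∈ d.H lam (l' x) := T_sub_H hdf.1 hxT
    have hj := jump hlam hdf (fun c' h' => hdpot ▸ hmin₁ c' h') hk hxH (fun j hj hcon => by
      have h5 : x ∈ c.T lam l j := by
        rw [← hTeq j (by omega)]; exact mem_T.2 ⟨j, le_rfl, hcon, by omega⟩
      have := (low_spec (J := J) (by omega) h5).1
      change l' x ≤ _ at this
      omega)
    simp only [cand, mem_filter, mem_univ, true_and]
    refine ⟨hk, hxH, hj.le.trans ?_⟩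
    rw [hTeq _ hk]
    exact_mod_cast card_le_card (T_mono (by omega))

end Crest.Agent.R52
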