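import Crest.Agent.R52.Selector

/-! Talagrand's discrete convexity problem. -/

set_option autoImplicit false
set_option linter.unusedSectionVars false

namespace Crest.Agent.R52

open Finset Crest.Agent.PP

variable {α : Type} [Fintype α] [DecidableEq α]

/-- centred coordinate -/
noncomputable def psi (q : ℝ) (b : Bool) : ℝ := (if b then 1 else 0) - q

/-- unnormalised biased Fourier coefficient -/
noncomputable def fc (q : ℝ) (f : (α → Bool) → ℝ) (R : Finset α) : ℝ :=
  Ex (bw q) (fun ω => f ω * ∏ x ∈ R, psi q (ω x))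

lemma fc_identity (q t : ℝ) (f : (α → Bool) → ℝ) (S : Finset α) :
    ∑ R ∈ S.powerset, t ^ R.card * fc q f R ^ 2 =
      Ex (bw q) (fun a => Ex (bw q) (fun b =>
        f a * f b * ∏ x ∈ S, (1 + t * psi q (a x) * psi q (b x)))) := by
  simp only [prod_one_add, mul_sum, Ex_sum]
  refine sum_congr rfl fun R _ => ?_
  have : ∀ a b : α → Bool, f a * f b * ∏ x ∈ R, (t * psi q (a x) * psi q (b x)) =
      (t ^ R.card * (f a * ∏ x ∈ R, psi q (a x))) * (f b * ∏ x ∈ R, psi q (b x)) := by
    intro a b; rw [prod_mul_distrib, prod_mul_distrib, prod_const]; ring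
  simp only [this, Ex_const_mul, Ex_mul_const]
  unfold fc; ring

lemma parseval {q : ℝ} (h0 : 0 < q) (h1 : q < 1) (f : (α → Bool) → ℝ) :
    ∑ R : Finset α, (1 / (q * (1 - q))) ^ R.card * fc q f R ^ 2 = Ex (bw q) (fun a => f a ^ 2) := by
  have := fc_identity q (1 / (q * (1 - q))) f univ
  rw [powerset_univ] at this
  rw [this]
  congr 1; ext a
  have key : ∀ b : α → Bool, wt (bw q) b *
      (f a * f b * ∏ x, (1 + 1 / (q * (1 - q)) * psi q (a x) * psi q (b x))) =
      if b = a then f a ^ 2 else 0 := by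
    intro b
    have e : wt (bw q) b * ∏ x, (1 + 1 / (q * (1 - q)) * psi q (a x) * psi q (b x)) =
        ∏ x, if b x = a x then (1:ℝ) else 0 := by
      unfold wt
      rw [← prod_mul_distrib]
      refine prod_congr rfl fun x _ => ?_
      have : 1 - q ≠ 0 := by linarith
      cases a x <;> cases b x <;> simp only [bw, psi, Bool.false_eq_true, Bool.true_eq_false,
        if_true, if_false] <;> field_simp <;> ring
    rw [mul_left_comm, e]
    split_ifs with h
    · subst h; simp [sq]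
    · obtain ⟨x, hx⟩ := Function.ne_iff.1 h
      rw [prod_eq_zero (mem_univ x) (if_neg hx), mul_zero]
  unfold Ex
  simp only [key]
  simp

/-- sets not covered by two members of a large family have a cheap fractional cover -/
lemma small_of_two {q r : ℝ} (h0 : 0 < q) (h1 : q < 1) (hr : 0 < r) (hrq : r * (1 - q) ≤ q)
    (D : (α → Bool) → Prop) (hD : 2 / 3 ≤ Ex (bw q) (fun ω => ind (D ω)))
    (F : Finset (Finset α))
    (hF : ∀ S ∈ F, ∀ a b, D a → D b → ∃ x ∈ S, a x = false ∧ b x = false) :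
    Small F (r / (25 * 512 ^ 4)) := by
  classical
  set μ := Ex (bw q) (fun ω => ind (D ω)) with hμ
  set f : (α → Bool) → ℝ := fun ω => ind (D ω) with hf
  have hμ0 : 0 < μ := by linarith
  have hc0 : fc q f ∅ = μ := by simp [fc, hμ]
  let g : Finset α → ℝ := fun R => if R = ∅ then 0 else (1 / q ^ 2) ^ R.card * fc q f R ^ 2 / μ ^ 2
  refine frac_to_int F hr g (fun S => by simp only [g]; split_ifs <;> positivity) (fun S hS => ?_) ?_
  · have h2 := fc_identity q (-(1 / q ^ 2)) f S
    have h3 : ∀ a b : α → Bool,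
        f a * f b * ∏ x ∈ S, (1 + -(1 / q ^ 2) * psi q (a x) * psi q (b x)) = 0 := by
      intro a b
      by_cases ha : D a
      · by_cases hb : D b
        · obtain ⟨x, hx, e1, e2⟩ := hF S hS a b ha hb
          rw [prod_eq_zero hx, mul_zero]
          simp only [e1, e2, psi]; simp; field_simp; ring
        · simp [hf, ind_neg hb]
      · simp [hf, ind_neg ha]
    simp only [h3, Ex_const (isProb_bw h0.le h1.le)] at h2
    rw [← add_sum_erase _ _ (empty_mem_powerset S)] at h2 ⊢
    simp only [card_empty, pow_zero, one_mul, hc0] at h2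
    have h4 : ∑ R ∈ S.powerset.erase ∅, g R =
        (∑ R ∈ S.powerset.erase ∅, (1 / q ^ 2) ^ R.card * fc q f R ^ 2) / μ ^ 2 := by
      rw [sum_div]; exact sum_congr rfl fun R hR => if_neg (ne_of_mem_erase hR)
    rw [h4]
    simp only [g, if_true, zero_add]
    rw [le_div_iff₀ (by positivity), one_mul]
    have h5 : ∑ R ∈ S.powerset.erase ∅, -((-(1 / q ^ 2)) ^ R.card * fc q f R ^ 2) ≤
        ∑ R ∈ S.powerset.erase ∅, (1 / q ^ 2) ^ R.card * fc q f R ^ 2 := by
      refine sum_le_sum fun R _ => ?_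
      rw [← neg_mul]
      refine mul_le_mul_of_nonneg_right ?_ (sq_nonneg _)
      refine (neg_le_abs _).trans (le_of_eq ?_)
      rw [abs_pow, abs_neg, abs_of_pos (by positivity)]
    rw [sum_neg_distrib] at h5
    linarith
  · have h2 := parseval h0 h1 f
    have h3 : Ex (bw q) (fun a => f a ^ 2) = μ := by
      rw [hμ]; congr 1; ext a
      by_cases ha : D a
      · simp [hf, ind_pos ha]
      · simp [hf, ind_neg ha]
    rw [h3, ← add_sum_erase _ _ (mem_univ ∅)] at h2
    rw [← add_sum_erase _ _ (mem_univ ∅)]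
    simp only [card_empty, pow_zero, one_mul, hc0] at h2
    have h4 : ∑ R ∈ univ.erase ∅, g R * r ^ R.card ≤
        (∑ R ∈ univ.erase ∅, (1 / (q * (1 - q))) ^ R.card * fc q f R ^ 2) / μ ^ 2 := by
      rw [sum_div]
      refine sum_le_sum fun R hR => ?_
      simp only [g, if_neg (ne_of_mem_erase hR)]
      rw [div_mul_eq_mul_div, mul_right_comm, ← mul_pow]
      have : 0 < 1 - q := by linarith
      gcongr
      rw [div_mul_eq_mul_div, div_le_div_iff₀ (by positivity) (by positivity)]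
      nlinarith
    simp only [g, if_true, zero_mul, zero_add] at h4 ⊢
    refine h4.trans ?_
    rw [div_le_iff₀ (by positivity)]
    nlinarith

/-- covered by `m` members of `D` -/
def Cov (D : (α → Bool) → Prop) (m : ℕ) (ω : α → Bool) : Prop :=
  ∃ f : Fin m → (α → Bool), (∀ i, D (f i)) ∧ ∀ x, ω x = true → ∃ i, f i x = true

lemma cov_prob {p : ℝ} (h0 : 0 ≤ p) (h1 : p ≤ 1) (D : (α → Bool) → Prop) (m : ℕ) :
    Ex (bw p) (fun ω => ind (D ω)) ^ m ≤ Ex (bw (1 - (1 - p) ^ m)) (fun ω => ind (Cov D m ω)) := by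
  induction m with
  | zero =>
    have h := Ex_prod (ι := α) (bw (1 - (1 - p) ^ 0)) (fun _ b => ind (b = false))
    simp only [← ind_forall] at h
    have h2 : ∏ _i : α, ∑ k : Bool, bw (1 - (1 - p) ^ 0) k * ind (k = false) = 1 := by
      simp [bw, ind]
    rw [h2] at h
    rw [pow_zero, sub_self] at h
    rw [pow_zero, pow_zero, sub_self]
    refine h.ge.trans ?_
    refine Ex_ind_mono (isProb_bw le_rfl zero_le_one) fun ω hω => ?_
    refine ⟨Fin.elim0, fun i => i.elim0, fun x hx => ?_⟩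
    rw [hω x (mem_univ x)] at hx; exact absurd hx (by simp)
  | succ m ih =>
    have hq0 : 0 ≤ 1 - (1 - p) ^ m := sub_nonneg.2 (pow_le_one₀ (by linarith) (by linarith))
    have hq1 : 1 - (1 - p) ^ m ≤ 1 := by linarith [pow_nonneg (by linarith : 0 ≤ 1 - p) m]
    rw [show 1 - (1 - p) ^ (m + 1) = p + (1 - (1 - p) ^ m) - p * (1 - (1 - p) ^ m) by ring,
      Ex_bw_or, pow_succ']
    refine (mul_le_mul_of_nonneg_left ih (Ex_ind_nonneg (isProb_bw h0 h1) _)).trans ?_
    rw [← Ex_mul_const]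
    refine Ex_mono (isProb_bw h0 h1) fun a => ?_
    rw [← Ex_const_mul]
    refine Ex_mono (isProb_bw hq0 hq1) fun b => ?_
    rw [← ind_and]
    refine ind_mono ?_
    rintro ⟨ha, f, hf, hb⟩
    refine ⟨Fin.cons a f, fun i => Fin.cases ha (fun j => hf j) i, fun x hx => ?_⟩
    rcases Bool.or_eq_true_iff.1 hx with h | h
    · exact ⟨0, h⟩
    · obtain ⟨i, hi⟩ := hb x h
      exact ⟨i.succ, hi⟩

/-- the multiplicity -/
def mm : ℕ := 25 * 512 ^ 4

/-- discrete convexity -/
theorem convexity {p : ℝ} (h0 : 0 < p) (h1 : p < 1) (D : (α → Bool) → Prop)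
    (hD : 1 - 1 / (3 * mm) ≤ Ex (bw p) (fun ω => ind (D ω))) (F : Finset (Finset α))
    (hF : ∀ S ∈ F, ∀ f : Fin mm ⊕ Fin mm → (α → Bool), (∀ i, D (f i)) →
      ∃ x ∈ S, ∀ i, f i x = false) : Small F p := by
  have hm : (mm : ℝ) = 25 * 512 ^ 4 := by unfold mm; norm_num
  have hm0 : mm ≠ 0 := by unfold mm; norm_num
  have hp1 : 0 < 1 - p := by linarith
  have hq0 : (1 - p) ^ mm < 1 := pow_lt_one₀ hp1.le (by linarith) hm0
  have hq1 : 0 < (1 - p) ^ mm := by positivity
  have key := small_of_two (q := 1 - (1 - p) ^ mm) (r := mm * p) (by linarith) (by linarith)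
    (by rw [hm]; positivity) ?_ (Cov D mm) ?_ F ?_
  · rwa [show mm * p / (25 * 512 ^ 4) = p by rw [hm]; field_simp] at key
  · have e1 : 1 + mm * p ≤ (1 + p) ^ mm := one_add_mul_le_pow (by linarith) _
    have e2 : (1 + p) ^ mm * (1 - p) ^ mm ≤ 1 := by
      rw [← mul_pow]; exact pow_le_one₀ (by positivity) (by nlinarith)
    nlinarith
  · refine le_trans ?_ (cov_prob h0.le h1.le D mm)
    have e1 : 1 + mm * (-(1 / (3 * mm : ℝ))) ≤ (1 + (-(1 / (3 * mm : ℝ)))) ^ mm :=
      one_add_mul_le_pow (by rw [hm]; norm_num) _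
    have e2 : (1 + (-(1 / (3 * mm : ℝ)))) ^ mm ≤ Ex (bw p) (fun ω => ind (D ω)) ^ mm :=
      pow_le_pow_left₀ (by rw [hm]; norm_num) (by linarith) _
    refine le_trans (le_of_eq ?_) (e1.trans e2)
    rw [hm]; norm_num
  · rintro S hS a b ⟨f, hf, ha⟩ ⟨g, hg, hb⟩
    obtain ⟨x, hx, h⟩ := hF S hS (Sum.elim f g) (fun i => by cases i <;> simp [hf, hg])
    refine ⟨x, hx, ?_, ?_⟩
    · by_contra hc
      obtain ⟨i, hi⟩ := ha x (by simpa using hc)
      have := h (Sum.inl i); simp [hi] at this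
    · by_contra hc
      obtain ⟨i, hi⟩ := hb x (by simpa using hc)
      have := h (Sum.inr i); simp [hi] at this

/-- support of a Boolean function -/
def supp (ω : α → Bool) : Finset α := univ.filter fun x => ω x = true

lemma wt_bw (p : ℝ) (ω : α → Bool) :
    wt (bw p) ω = p ^ (supp ω).card * (1 - p) ^ (Fintype.card α - (supp ω).card) := by
  unfold wt bw
  rw [prod_ite, prod_const, prod_const]
  congr 2
  rw [← card_univ, ← card_filter_add_card_filter_not (s := univ) (fun x => ω x = true)]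
  simp [supp]

lemma Ex_supp (p : ℝ) (D : Finset (Finset α)) :
    Ex (bw p) (fun ω => ind (supp ω ∈ D)) =
      ∑ S ∈ D, p ^ S.card * (1 - p) ^ (Fintype.card α - S.card) := by
  classical
  unfold Ex
  let e : (α → Bool) ≃ Finset α :=
    ⟨supp, fun S x => decide (x ∈ S), fun ω => by ext x; simp [supp], fun S => by ext x; simp [supp]⟩
  rw [Fintype.sum_equiv e _ (fun S => p ^ S.card * (1 - p) ^ (Fintype.card α - S.card) *
    ind (S ∈ D)) (fun ω => by rw [wt_bw]; rfl), ← sum_subset (subset_univ D)]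
  · exact sum_congr rfl fun S hS => by rw [ind_pos hS, mul_one]
  · intro S _ hS; rw [ind_neg hS, mul_zero]

theorem convexity' {N : ℕ} {p : ℝ} (hp0 : 0 < p) (hp1 : p < 1) (D : Finset (Finset (Fin N)))
    (k : ℕ) (hk : mm + mm ≤ k)
    (hD : 1 - 1 / (3 * mm) ≤ ∑ S ∈ D, p ^ S.card * (1 - p) ^ (N - S.card)) :
    ∃ G : Finset (Finset (Fin N)),
      (∀ S : Finset (Fin N),
        (∀ f : Fin k → Finset (Fin N), (∀ i, f i ∈ D) → ¬ S ⊆ Finset.univ.biUnion f) →
          ∃ I ∈ G, I ⊆ S) ∧
      ∑ I ∈ G, p ^ I.card ≤ 1 / 2 := by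
  classical
  have hDne : D.Nonempty := by
    by_contra hc
    rw [Finset.not_nonempty_iff_eq_empty.1 hc] at hD
    unfold mm at hD
    norm_num at hD
  obtain ⟨S₀, hS₀⟩ := hDne
  obtain ⟨G, hG, hc⟩ := convexity hp0 hp1 (fun ω => supp ω ∈ D)
    (by rw [Ex_supp, Fintype.card_fin]; exact hD)
    (Finset.univ.filter fun S : Finset (Fin N) =>
      ∀ f : Fin k → Finset (Fin N), (∀ i, f i ∈ D) → ¬ S ⊆ Finset.univ.biUnion f)
    (by
      intro S hS f hf
      obtain ⟨e⟩ : Nonempty (Fin mm ⊕ Fin mm ↪ Fin k) :=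
        Function.Embedding.nonempty_of_card_le (by
          rw [Fintype.card_sum, Fintype.card_fin, Fintype.card_fin]; exact hk)
      have h1 := (Finset.mem_filter.1 hS).2
        (Function.extend e (fun i => supp (f i)) (fun _ => S₀)) (fun j => by
          by_cases hj : ∃ i, e i = j
          · obtain ⟨i, rfl⟩ := hj
            rw [e.injective.extend_apply]; exact hf i
          · rw [Function.extend_apply' _ _ _ hj]; exact hS₀)
      obtain ⟨x, hx, hx'⟩ := Finset.not_subset.1 h1
      refine ⟨x, hx, fun i => ?_⟩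
      by_contra hcon
      refine hx' (Finset.mem_biUnion.2 ⟨e i, Finset.mem_univ _, ?_⟩)
      rw [e.injective.extend_apply]
      simpa [supp] using hcon)
  exact ⟨G, fun S hS => hG S (Finset.mem_filter.2 ⟨Finset.mem_univ _, hS⟩), hc⟩

end Crest.Agent.R52
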