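import Crest.Agent.R52.Config

/-! Multi-scale selector theorem and rounding of fractional covers. -/

set_option autoImplicit false
set_option linter.unusedSectionVars false

namespace Crest.Agent.R52

open Finset Crest.Agent.PP

variable {α : Type} [Fintype α] [DecidableEq α]

/-- `F` has a cover of `p`-cost at most `1/2` -/
def Small (F : Finset (Finset α)) (p : ℝ) : Prop :=
  ∃ G : Finset (Finset α), (∀ H ∈ F, ∃ S ∈ G, S ⊆ H) ∧ ∑ S ∈ G, p ^ S.card ≤ 1 / 2

variable (F : Finset (Finset α)) (lam : Finset α → α → ℝ) (J : ℕ)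

def sig (ω : α → Fin (J + 1)) (T : Finset α) (j : Fin (J + 1)) : ℕ := (T.filter fun x => ω x = j).card

def sOf (σ : Fin (J + 1) → ℕ) (k : ℕ) : ℕ := ∑ j ∈ univ.filter (fun j : Fin (J + 1) => (j : ℕ) ≤ k), σ j

def Valid (ω : α → Fin (J + 1)) (T : Finset α) : Prop :=
  T.Nonempty ∧ T ⊆ cand F lam J (fun x => ω x) (sOf J (sig J ω T)) (∑ j, sig J ω T j)

variable {J}

lemma sum_sig (ω : α → Fin (J + 1)) (T : Finset α) : ∑ j, sig J ω T j = T.card := by
  unfold sig; rw [← card_eq_sum_card_fiberwise (f := ω) (fun _ _ => mem_univ _)]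

lemma sOf_sig (ω : α → Fin (J + 1)) (T : Finset α) (k : ℕ) :
    sOf J (sig J ω T) k = (T.filter fun x => (ω x : ℕ) ≤ k).card := by
  unfold sOf sig
  rw [card_eq_sum_card_fiberwise (f := ω) (s := T.filter fun x => (ω x : ℕ) ≤ k)
    (t := univ.filter (fun j : Fin (J + 1) => (j : ℕ) ≤ k)) (fun x hx => by
      simp only [coe_filter, Set.mem_ofPred_eq, mem_univ, true_and] at hx ⊢; exact hx.2)]
  refine sum_congr rfl fun j hj => ?_
  congr 1; ext x
  simp only [mem_filter, mem_univ, true_and] at hj ⊢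
  constructor
  · rintro ⟨h1, h2⟩; exact ⟨⟨h1, h2 ▸ hj⟩, h2⟩
  · rintro ⟨⟨h1, _⟩, h2⟩; exact ⟨h1, h2⟩

lemma prod_sig (ω : α → Fin (J + 1)) (T : Finset α) (z : Fin (J + 1) → ℝ) :
    ∏ x ∈ T, z (ω x) = ∏ j, z j ^ sig J ω T j := by
  rw [← prod_fiberwise_of_maps_to (g := ω) (t := univ) (fun _ _ => mem_univ _)]
  refine prod_congr rfl fun j _ => ?_
  rw [prod_congr rfl (g := fun _ => z j) (fun x hx => by rw [(mem_filter.1 hx).2]), prod_const]
  rfl

lemma one_sub_sum_le_prod {β : Type*} (s : Finset β) (z : β → ℝ) (h0 : ∀ b, 0 ≤ z b)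
    (h1 : ∀ b, z b ≤ 1) : 1 - ∑ b ∈ s, z b ≤ ∏ b ∈ s, (1 - z b) := by
  classical
  induction s using Finset.induction_on with
  | empty => simp
  | insert a s ha ih =>
    rw [sum_insert ha, prod_insert ha]
    have : 0 ≤ ∑ b ∈ s, z b := sum_nonneg fun b _ => h0 b
    have h2 := mul_le_mul_of_nonneg_left ih (sub_nonneg.2 (h1 a))
    have := h0 a
    nlinarith

lemma sum_z_le (J : ℕ) : ∑ j : Fin J, 3 * ((1:ℝ) / 16) ^ ((j : ℕ) + 1) ≤ 1 / 5 := by
  rw [Fin.sum_univ_eq_sum_range (fun j => 3 * ((1:ℝ) / 16) ^ (j + 1))]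
  have : ∑ k ∈ range J, 3 * ((1:ℝ) / 16) ^ (k + 1) = (1 - (1 / 16) ^ J) / 5 := by
    induction J with
    | zero => simp
    | succ n ih => rw [sum_range_succ, ih]; ring
  rw [this]
  have : (0:ℝ) ≤ (1 / 16) ^ J := by positivity
  linarith

lemma sum_sigma_le (J N : ℕ) :
    ∑ σ ∈ Fintype.piFinset (fun _ : Fin J => range (N + 1)),
      ∏ j : Fin J, (3 * ((1:ℝ) / 16) ^ ((j : ℕ) + 1)) ^ σ j ≤ 5 / 4 := by
  set z : Fin J → ℝ := fun j => 3 * ((1:ℝ) / 16) ^ ((j : ℕ) + 1) with hz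
  rw [← prod_univ_sum (fun _ : Fin J => range (N + 1)) (fun j s => z j ^ s)]
  have h0 : ∀ j, 0 ≤ z j := fun j => by positivity
  have h1 : ∀ j, z j ≤ 1 / 5 := fun j =>
    (single_le_sum (f := z) (fun j _ => h0 j) (mem_univ j)).trans (sum_z_le J)
  have h2 := one_sub_sum_le_prod univ z h0 (fun j => (h1 j).trans (by norm_num))
  have h3 := sum_z_le J
  have h4 : (∏ j, ∑ s ∈ range (N + 1), z j ^ s) * ∏ j, (1 - z j) ≤ 1 := by
    rw [← prod_mul_distrib]
    refine prod_le_one (fun j _ => mul_nonneg (sum_nonneg fun _ _ => pow_nonneg (h0 j) _)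
      (by linarith [h1 j])) fun j _ => ?_
    rw [geom_sum_mul_neg]
    linarith [pow_nonneg (h0 j) (N + 1)]
  have h5 : 0 ≤ ∏ j, ∑ s ∈ range (N + 1), z j ^ s :=
    prod_nonneg fun j _ => sum_nonneg fun _ _ => pow_nonneg (h0 j) _
  have h6 : 4 / 5 ≤ ∏ j, (1 - z j) := by linarith
  nlinarith

lemma count_valid (ω : α → Fin (J + 1)) :
    ∑ T : Finset α, ind (Valid F lam J ω T) * ∏ x ∈ T, ((1:ℝ) / 64) ^ ((ω x : ℕ) + 1) ≤ 1 / 4 := by
  classical
  set z : Fin (J + 1) → ℝ := fun j => 3 * ((1:ℝ) / 16) ^ ((j : ℕ) + 1) with hz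
  have h0 : ∀ j, 0 ≤ z j := fun j => by positivity
  set P := Fintype.piFinset (fun _ : Fin (J + 1) => range (Fintype.card α + 1)) with hP
  rw [← sum_fiberwise_of_maps_to (g := sig J ω) (t := P) (fun T _ => by
    simp only [hP, Fintype.mem_piFinset, mem_range]
    intro j; exact Nat.lt_succ_of_le (card_le_univ _))]
  have h1 : ∀ σ ∈ P, ∑ T ∈ univ.filter (fun T => sig J ω T = σ),
      ind (Valid F lam J ω T) * ∏ x ∈ T, ((1:ℝ) / 64) ^ ((ω x : ℕ) + 1) ≤
      ∏ j, z j ^ σ j - if σ = 0 then 1 else 0 := by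
    intro σ _
    split_ifs with hσ
    · subst hσ
      rw [sum_eq_zero]
      · simp
      · intro T hT
        rw [ind_neg, zero_mul]
        rintro ⟨h, _⟩
        have h2 := sum_sig ω T
        rw [(mem_filter.1 hT).2] at h2
        have := h.card_pos
        simp at h2; omega
    · set R := cand F lam J (fun x => ω x) (sOf J σ) (∑ j, σ j) with hR
      set τ := ∑ j, σ j with hτ
      have h2 : ∀ T ∈ univ.filter (fun T => sig J ω T = σ),
          ind (Valid F lam J ω T) * ∏ x ∈ T, ((1:ℝ) / 64) ^ ((ω x : ℕ) + 1) ≤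
          (∏ j, z j ^ σ j) * (1 / 3) ^ τ * (ind (T ⊆ R) * ∏ x ∈ T, rho (ω x) ^ 2) := by
        intro T hT
        have hT := (mem_filter.1 hT).2
        have e1 : ∏ x ∈ T, ((1:ℝ) / 64) ^ ((ω x : ℕ) + 1) =
            (∏ j, z j ^ σ j) * (1 / 3) ^ τ * ∏ x ∈ T, rho (ω x) ^ 2 := by
          rw [hτ, ← hT, ← prod_sig, sum_sig, ← prod_const, ← prod_mul_distrib, ← prod_mul_distrib]
          refine prod_congr rfl fun x _ => ?_
          simp only [hz, rho]
          rw [← pow_mul, mul_comm _ 2, pow_mul,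
            show ((1:ℝ) / 64) = (1 / 16) * (1 / 2) ^ 2 by norm_num, mul_pow]
          ring
        rw [e1]
        have e2 : ind (Valid F lam J ω T) ≤ ind (T ⊆ R) :=
          ind_mono fun h => by have := h.2; rw [hT] at this; exact this
        have e3 : 0 ≤ (∏ j, z j ^ σ j) * (1 / 3) ^ τ * ∏ x ∈ T, rho (ω x) ^ 2 :=
          mul_nonneg (mul_nonneg (prod_nonneg fun j _ => pow_nonneg (h0 j) _) (by positivity))
            (prod_nonneg fun _ _ => by positivity)
        calc _ ≤ ind (T ⊆ R) * _ := mul_le_mul_of_nonneg_right e2 e3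
          _ = _ := by ring
      refine (sum_le_sum h2).trans ?_
      rw [← mul_sum, sub_zero]
      have h3 : ∑ T ∈ univ.filter (fun T => sig J ω T = σ),
          (ind (T ⊆ R) * ∏ x ∈ T, rho (ω x) ^ 2) ≤ 3 ^ τ := by
        calc _ ≤ ∑ T : Finset α, (ind (T ⊆ R) * ∏ x ∈ T, rho (ω x) ^ 2) :=
              sum_le_sum_of_subset_of_nonneg (filter_subset _ _) fun T _ _ =>
                mul_nonneg (ind_nonneg _) (prod_nonneg fun _ _ => by positivity)
          _ = ∑ T ∈ R.powerset, ∏ x ∈ T, rho (ω x) ^ 2 := by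
              rw [← sum_subset (subset_univ R.powerset)]
              · exact sum_congr rfl fun T hT => by rw [ind_pos (mem_powerset.1 hT), one_mul]
              · intro T _ hT; rw [ind_neg (by simpa using hT), zero_mul]
          _ = ∏ x ∈ R, (1 + rho (ω x) ^ 2) := (prod_one_add R).symm
          _ ≤ ∏ x ∈ R, Real.exp (rho (ω x) ^ 2) :=
              prod_le_prod (fun _ _ => by positivity) fun _ _ => by
                rw [add_comm]; exact Real.add_one_le_exp _
          _ = Real.exp (∑ x ∈ R, rho (ω x) ^ 2) := (Real.exp_sum _ _).symm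
          _ ≤ Real.exp τ := Real.exp_le_exp.2 (sum_cand_le _ _ _)
          _ = Real.exp 1 ^ τ := by rw [← Real.exp_nat_mul, mul_one]
          _ ≤ 3 ^ τ := pow_le_pow_left₀ (Real.exp_pos _).le
              (by linarith [Real.exp_one_lt_d9]) _
      have h4 : 0 ≤ ∏ j, z j ^ σ j := prod_nonneg fun j _ => pow_nonneg (h0 j) _
      calc _ ≤ (∏ j, z j ^ σ j) * (1 / 3) ^ τ * 3 ^ τ := by gcongr
        _ = _ := by rw [mul_assoc, ← mul_pow]; simp
  refine (sum_le_sum h1).trans ?_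
  rw [sum_sub_distrib, sum_ite_eq', if_pos (by simp [hP])]
  have := sum_sigma_le (J + 1) (Fintype.card α)
  linarith

variable {F lam}

/-- multi-scale selector theorem -/
theorem selector (hsum : ∀ U ∈ F, ∑ x, lam U x = 1) (hlam : ∀ U ∈ F, ∀ x, 0 ≤ lam U x)
    (hsupp : ∀ U ∈ F, ∀ x ∉ U, lam U x = 0) {p : ℝ} (hp : 0 ≤ p) (w : Fin (J + 1) → ℝ)
    (hw : IsProb w) (hwp : ∀ j : Fin (J + 1), (j : ℕ) < J → w j = 64 ^ ((j : ℕ) + 1) * p)
    (hF : ¬ Small F p) :
    Ex w (fun ω : α → Fin (J + 1) => ind (∀ U ∈ F, 2 < ∑ x, lam U x * ((ω x : ℕ) : ℝ))) ≤ 1 / 2 := by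
  classical
  have h1 : ∀ ω : α → Fin (J + 1), ind (∀ U ∈ F, 2 < ∑ x, lam U x * ((ω x : ℕ) : ℝ)) * (1 / 2) ≤
      ∑ T : Finset α, ∑ ω' : α → Fin (J + 1), (ind (Valid F lam J ω' T) * p ^ T.card) *
        ∏ x ∈ Tᶜ, ind (ω x = ω' x) := by
    intro ω
    have hnn : ∀ (T : Finset α) (ω' : α → Fin (J + 1)), 0 ≤ (ind (Valid F lam J ω' T) * p ^ T.card) *
        ∏ x ∈ Tᶜ, ind (ω x = ω' x) := fun T ω' =>
      mul_nonneg (mul_nonneg (ind_nonneg _) (by positivity)) (prod_nonneg fun _ _ => ind_nonneg _)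
    by_cases hbad : ∀ U ∈ F, 2 < ∑ x, lam U x * ((ω x : ℕ) : ℝ)
    swap
    · rw [ind_neg hbad, zero_mul]
      exact sum_nonneg fun T _ => sum_nonneg fun ω' _ => hnn T ω'
    rw [ind_pos hbad, one_mul]
    set G : Finset (Finset α) := univ.filter fun T => ∃ ω' : α → Fin (J + 1),
      Valid F lam J ω' T ∧ ∀ x ∉ T, ω x = ω' x with hG
    have hcov : ∀ H ∈ F, ∃ S ∈ G, S ⊆ H := by
      intro U hU
      obtain ⟨T, hTU, hTne, l', hl', hT⟩ := encode (J := J) hsum hlam hsupp
        (l := fun x => ω x) (fun x => Nat.lt_succ_iff.1 (ω x).2) hbad hU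
      have hb : ∀ x, l' x < J + 1 := by
        intro x
        by_cases hx : x ∈ T
        · have := hT hx
          simp only [cand, mem_filter] at this
          omega
        · rw [hl' x hx]; exact (ω x).2
      refine ⟨T, mem_filter.2 ⟨mem_univ _, fun x => ⟨l' x, hb x⟩, ⟨hTne, ?_⟩, fun x hx => ?_⟩, hTU⟩
      · rw [sum_sig]
        have : sOf J (sig J (fun x => (⟨l' x, hb x⟩ : Fin (J + 1))) T) =
            fun k => (T.filter fun x => l' x ≤ k).card := by
          ext k; rw [sOf_sig]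
        rw [this]; exact hT
      · ext; exact (hl' x hx).symm
    have hcost : 1 / 2 < ∑ S ∈ G, p ^ S.card := by
      by_contra hc; exact hF ⟨G, hcov, not_lt.1 hc⟩
    refine hcost.le.trans (le_trans (sum_le_sum fun T hT => ?_)
      (sum_le_sum_of_subset_of_nonneg (subset_univ G) fun T _ _ => sum_nonneg fun ω' _ => hnn T ω'))
    obtain ⟨ω', hv, he⟩ := (mem_filter.1 hT).2
    refine le_trans (le_of_eq ?_) (single_le_sum (fun ω' _ => hnn T ω') (mem_univ ω'))
    rw [ind_pos hv, prod_eq_one fun x hx => ind_pos (he x (mem_compl.1 hx))]; ring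
  have h2 := Ex_mono hw h1
  rw [Ex_mul_const, Ex_sum] at h2
  simp only [Ex_sum, Ex_const_mul] at h2
  have h3 : ∀ (T : Finset α) (ω' : α → Fin (J + 1)), (ind (Valid F lam J ω' T) * p ^ T.card) *
      Ex w (fun ω : α → Fin (J + 1) => ∏ x ∈ Tᶜ, ind (ω x = ω' x)) =
      wt w ω' * (ind (Valid F lam J ω' T) * ∏ x ∈ T, ((1:ℝ) / 64) ^ ((ω' x : ℕ) + 1)) := by
    intro T ω'
    by_cases hv : Valid F lam J ω' T
    swap
    · rw [ind_neg hv]; ring
    rw [Ex_prod_on hw Tᶜ (fun x k => ind (k = ω' x)), ind_pos hv]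
    have e1 : ∀ x, ∑ k, w k * ind (k = ω' x) = w (ω' x) := by
      intro x
      rw [sum_eq_single (ω' x) (fun k _ hk => by rw [ind_neg hk, mul_zero]) (by simp),
        ind_pos rfl, mul_one]
    simp only [e1, one_mul]
    unfold wt
    rw [← prod_mul_prod_compl T, mul_right_comm, ← prod_mul_distrib, ← prod_const]
    congr 1
    refine prod_congr rfl fun x hx => ?_
    have := hv.2 hx
    simp only [cand, mem_filter] at this
    rw [hwp _ this.2.1, mul_right_comm, ← mul_pow]; simp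
  simp only [h3] at h2
  rw [sum_comm] at h2
  simp only [← mul_sum] at h2
  have h4 : ∑ ω' : α → Fin (J + 1), wt w ω' * ∑ T : Finset α,
      ind (Valid F lam J ω' T) * ∏ x ∈ T, ((1:ℝ) / 64) ^ ((ω' x : ℕ) + 1) ≤ 1 / 4 :=
    Ex_le_const hw fun ω' => count_valid F lam ω'
  linarith

lemma exists_labels {p : ℝ} (hp : 0 < p) : ∃ (J : ℕ) (w : Fin (J + 1) → ℝ), IsProb w ∧
    (∀ j : Fin (J + 1), (j : ℕ) < J → w j = 64 ^ ((j : ℕ) + 1) * p) ∧
    ∑ j, w j * ((1:ℝ) / 128) ^ (j : ℕ) ≤ 256 * p := by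
  classical
  have hex : ∃ J : ℕ, 1 < ∑ k ∈ range (J + 1), (64:ℝ) ^ (k + 1) * p := by
    obtain ⟨J, hJ⟩ := pow_unbounded_of_one_lt (1 / p) (by norm_num : (1:ℝ) < 64)
    refine ⟨J, lt_of_lt_of_le ?_ (single_le_sum (f := fun k => (64:ℝ) ^ (k + 1) * p)
      (fun _ _ => by positivity) (self_mem_range_succ J))⟩
    rw [div_lt_iff₀ hp] at hJ
    have : (0:ℝ) < 64 ^ J * p := by positivity
    simp only [pow_succ]; nlinarith
  set J := Nat.find hex with hJ
  have hJ1 : 1 < ∑ k ∈ range (J + 1), (64:ℝ) ^ (k + 1) * p := Nat.find_spec hex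
  have hJ2 : ∑ k ∈ range J, (64:ℝ) ^ (k + 1) * p ≤ 1 := by
    rcases Nat.eq_zero_or_pos J with h | h
    · rw [h]; simp
    · have := Nat.find_min hex (m := J - 1) (by omega)
      rw [show J - 1 + 1 = J by omega] at this
      exact not_lt.1 this
  set S := ∑ k ∈ range J, (64:ℝ) ^ (k + 1) * p with hS
  have hS0 : 0 ≤ S := sum_nonneg fun _ _ => by positivity
  let v : ℕ → ℝ := fun k => if k < J then 64 ^ (k + 1) * p else 1 - S
  have hv : ∀ f : ℕ → ℝ, ∑ j : Fin (J + 1), v j * f j =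
      ∑ k ∈ range J, 64 ^ (k + 1) * p * f k + (1 - S) * f J := by
    intro f
    rw [Fin.sum_univ_eq_sum_range (fun k => v k * f k), sum_range_succ]
    congr 1
    · exact sum_congr rfl fun k hk => by simp only [v, if_pos (mem_range.1 hk)]
    · simp [v]
  refine ⟨J, fun j => v j, ⟨fun j => ?_, ?_⟩, fun j hj => if_pos hj, ?_⟩
  · simp only [v]; split_ifs
    · positivity
    · linarith
  · have := hv (fun _ => 1)
    simp only [mul_one] at this
    rw [this]; ring
  · rw [hv (fun k => ((1:ℝ) / 128) ^ k)]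
    have e1 : ∀ n : ℕ, ∑ k ∈ range n, (64:ℝ) ^ (k + 1) * p * (1 / 128) ^ k =
        128 * p * (1 - (1 / 2) ^ n) := by
      intro n
      induction n with
      | zero => simp
      | succ n ih =>
        rw [sum_range_succ, ih, show ((1:ℝ) / 128) = (1 / 64) * (1 / 2) by norm_num, mul_pow]
        have : (64:ℝ) ^ n * (1 / 64) ^ n = 1 := by rw [← mul_pow]; simp
        calc _ = 128 * p * (1 - (1 / 2) ^ n) + 64 * p * (64 ^ n * (1 / 64) ^ n) * (1 / 2) ^ n := by
              ring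
          _ = _ := by rw [this]; ring
    have e2 : ∀ n : ℕ, ∑ k ∈ range (n + 1), (64:ℝ) ^ (k + 1) * p ≤ 128 * 64 ^ n * p := by
      intro n
      induction n with
      | zero => simp; linarith
      | succ n ih =>
        rw [sum_range_succ]
        have : (0:ℝ) < 64 ^ n * p := by positivity
        simp only [pow_succ] at ih ⊢; nlinarith
    rw [e1]
    have e3 := hJ1.trans_le (e2 J)
    have e4 : ((1:ℝ) / 128) ^ J ≤ 128 * p := by
      have h1 : ((1:ℝ) / 128) ^ J ≤ (1 / 64) ^ J := pow_le_pow_left₀ (by norm_num) (by norm_num) _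
      have h2 : (64:ℝ) ^ J * (1 / 64) ^ J = 1 := by rw [← mul_pow]; simp
      have h3 : (0:ℝ) < (1 / 64) ^ J := by positivity
      nlinarith
    have e5 : (0:ℝ) ≤ (1 / 2) ^ J := by positivity
    have e6 : (0:ℝ) ≤ (1 / 128) ^ J := by positivity
    nlinarith

/-- Talagrand's conjecture: rounding of fractional covers -/
theorem frac_to_int (F : Finset (Finset α)) {r : ℝ} (hr : 0 < r) (g : Finset α → ℝ)
    (hg : ∀ S, 0 ≤ g S) (hcov : ∀ H ∈ F, 1 ≤ ∑ S ∈ H.powerset, g S)
    (hcost : ∑ S : Finset α, g S * r ^ S.card ≤ 1 / 2) : Small F (r / (25 * 512 ^ 4)) := by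
  classical
  by_contra hF
  set p := r / (25 * 512 ^ 4) with hpdef
  have hp : 0 < p := by positivity
  obtain ⟨J, w, hw, hwp, hw2⟩ := exists_labels hp
  have hg0 : g ∅ ≤ 1 / 2 := by
    refine le_trans ?_ hcost
    have := single_le_sum (f := fun S : Finset α => g S * r ^ S.card)
      (fun S _ => mul_nonneg (hg S) (by positivity)) (mem_univ ∅)
    simpa using this
  let P : Finset α → Finset (Finset α) := fun U => U.powerset.erase ∅
  let m : Finset α → ℝ := fun U => ∑ S ∈ P U, g S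
  have hm : ∀ U ∈ F, 1 / 2 ≤ m U := by
    intro U hU
    have := hcov U hU
    rw [← add_sum_erase _ _ (empty_mem_powerset U)] at this
    simp only [m, P]; linarith
  let lam : Finset α → α → ℝ := fun U x => (∑ S ∈ P U, g S / S.card * ind (x ∈ S)) / m U
  have hlamsum : ∀ U (f : α → ℝ), ∑ x, lam U x * f x =
      (∑ S ∈ P U, g S / S.card * ∑ x ∈ S, f x) / m U := by
    intro U f
    simp only [lam, div_mul_eq_mul_div _ (m U), ← sum_div, sum_mul]
    rw [sum_comm]
    congr 1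
    refine sum_congr rfl fun S _ => ?_
    rw [mul_sum, ← sum_subset (subset_univ S)]
    · exact sum_congr rfl fun x hx => by rw [ind_pos hx, mul_one]
    · intro x _ hx; rw [ind_neg hx]; ring
  have hcard : ∀ U, ∀ S ∈ P U, (0:ℝ) < S.card := by
    intro U S hS
    exact_mod_cast card_pos.2 (nonempty_iff_ne_empty.2 (ne_of_mem_erase hS))
  have hsel := selector (F := F) (lam := lam) (J := J) (fun U hU => by
      have := hlamsum U (fun _ => 1)
      simp only [mul_one] at this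
      rw [this, div_eq_one_iff_eq (by linarith [hm U hU])]
      refine sum_congr rfl fun S hS => ?_
      have := hcard U S hS
      simp only [sum_const, nsmul_eq_mul, mul_one]; field_simp)
    (fun U hU x => div_nonneg (sum_nonneg fun S _ => mul_nonneg (div_nonneg (hg S) (by positivity))
      (ind_nonneg _)) (by linarith [hm U hU]))
    (fun U _ x hx => by
      simp only [lam]
      rw [sum_eq_zero, zero_div]
      intro S hS
      rw [ind_neg (fun h => hx (mem_powerset.1 (mem_of_mem_erase hS) h)), mul_zero])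
    hp.le w hw hwp hF
  let Y : (α → Fin (J + 1)) → ℝ := fun ω => ∑ S ∈ univ.erase ∅,
    g S * (128 ^ 4) ^ S.card * ∏ x ∈ S, ((1:ℝ) / 128) ^ (ω x : ℕ)
  have hYterm : ∀ (ω : α → Fin (J + 1)) (S : Finset α),
      0 ≤ g S * (128 ^ 4) ^ S.card * ∏ x ∈ S, ((1:ℝ) / 128) ^ (ω x : ℕ) := fun ω S =>
    mul_nonneg (mul_nonneg (hg S) (by positivity)) (prod_nonneg fun _ _ => by positivity)
  have hY : Ex w Y ≤ 1 / 50 := by
    simp only [Y]
    rw [Ex_sum]
    simp only [Ex_const_mul]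
    have e1 : ∀ S ∈ (univ : Finset (Finset α)).erase ∅, g S * (128 ^ 4) ^ S.card *
        Ex w (fun ω : α → Fin (J + 1) => ∏ x ∈ S, ((1:ℝ) / 128) ^ (ω x : ℕ)) ≤
        (1 / 25) * (g S * r ^ S.card) := by
      intro S hS
      rw [Ex_prod_on hw S (fun _ k => ((1:ℝ) / 128) ^ (k : ℕ)), prod_const]
      have h0 : 0 ≤ ∑ j, w j * ((1:ℝ) / 128) ^ (j : ℕ) :=
        sum_nonneg fun j _ => mul_nonneg (hw.nonneg j) (by positivity)
      have hS0 : S.card ≠ 0 := (card_pos.2 (nonempty_iff_ne_empty.2 (ne_of_mem_erase hS))).ne'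
      have := hg S
      calc _ ≤ g S * (128 ^ 4) ^ S.card * (256 * p) ^ S.card := by gcongr
        _ = (1 / 25) ^ S.card * (g S * r ^ S.card) := by
            rw [mul_assoc, ← mul_pow, mul_left_comm ((1 / 25 : ℝ) ^ S.card), ← mul_pow]
            congr 2; rw [hpdef]; ring
        _ ≤ _ := by
            gcongr
            exact pow_le_of_le_one (by norm_num) (by norm_num) hS0
    refine (sum_le_sum e1).trans ?_
    rw [← mul_sum]
    have := sum_le_sum_of_subset_of_nonneg (f := fun S : Finset α => g S * r ^ S.card)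
      (erase_subset ∅ univ) (fun S _ _ => mul_nonneg (hg S) (by positivity))
    linarith
  have hgood : ∀ ω : α → Fin (J + 1),
      (1 - ind (∀ U ∈ F, 2 < ∑ x, lam U x * ((ω x : ℕ) : ℝ))) * (1 / 4) ≤ Y ω := by
    intro ω
    by_cases hbad : ∀ U ∈ F, 2 < ∑ x, lam U x * ((ω x : ℕ) : ℝ)
    · rw [ind_pos hbad]; simp only [sub_self, zero_mul]
      exact sum_nonneg fun S _ => hYterm ω S
    rw [ind_neg hbad]
    push Not at hbad
    obtain ⟨U, hU, hle⟩ := hbad
    rw [hlamsum, div_le_iff₀ (by linarith [hm U hU])] at hle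
    have e1 : ∀ S ∈ P U, g S - (g S / S.card * ∑ x ∈ S, ((ω x : ℕ) : ℝ)) / 4 ≤
        g S * (128 ^ 4) ^ S.card * ∏ x ∈ S, ((1:ℝ) / 128) ^ (ω x : ℕ) := by
      intro S hS
      have hc := hcard U S hS
      by_cases hl : ∑ x ∈ S, (ω x : ℕ) ≤ 4 * S.card
      · have h1 : 0 ≤ g S / S.card * ∑ x ∈ S, ((ω x : ℕ) : ℝ) :=
          mul_nonneg (div_nonneg (hg S) hc.le) (sum_nonneg fun _ _ => by positivity)
        have h2 : (1:ℝ) ≤ (128 ^ 4) ^ S.card * ∏ x ∈ S, ((1:ℝ) / 128) ^ (ω x : ℕ) := by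
          rw [prod_pow_eq_pow_sum, ← pow_mul]
          calc (1:ℝ) = 128 ^ (4 * S.card) * (1 / 128) ^ (4 * S.card) := by rw [← mul_pow]; simp
            _ ≤ _ := by
              gcongr _ * ?_
              exact pow_le_pow_of_le_one (by norm_num) (by norm_num) hl
        have := hg S
        rw [mul_assoc]; nlinarith
      · refine le_trans ?_ (hYterm ω S)
        have h1 : 4 * (S.card : ℝ) ≤ ∑ x ∈ S, ((ω x : ℕ) : ℝ) := by
          exact_mod_cast (not_le.1 hl).le
        have h2 : g S / S.card * (4 * S.card) = 4 * g S := by field_simp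
        have h3 := mul_le_mul_of_nonneg_left h1 (div_nonneg (hg S) hc.le)
        linarith
    have e2 := sum_le_sum e1
    rw [sum_sub_distrib, ← sum_div] at e2
    have e3 := sum_le_sum_of_subset_of_nonneg (s := P U) (t := univ.erase ∅)
      (f := fun S => g S * (128 ^ 4) ^ S.card * ∏ x ∈ S, ((1:ℝ) / 128) ^ (ω x : ℕ))
      (erase_subset_erase _ (subset_univ _)) (fun S _ _ => hYterm ω S)
    have e4 := hm U hU
    change m U - _ ≤ _ at e2
    change _ ≤ Y ω at e3
    linarith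
  have h5 := Ex_mono hw hgood
  rw [Ex_mul_const, Ex_sub, Ex_const hw] at h5
  linarith

end Crest.Agent.R52
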